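import Vale.Agent.P224.R2.H797.T17.Rows
import Vale.Agent.P224.R2.H797.LawE
import Vale.Agent.P224.R2.H797.LawM

/-!
Certificate in dimension 17: the law is negative for lengths of the mean normal between `1/50` and `1/8`.
-/

namespace Vale.Agent.P224.R2.H797.T17

open Vale.Agent.P224.UE Vale.Agent.P224.POS Vale.Agent.P224.PO Vale.Agent.P224.R2.H178
  Vale.Agent.P224.R2.H797

/-- the value of the rows -/
noncomputable def qv : PE := PE.add (PE.add (PE.c (-23964344352)) (PE.mul (PE.c (5839043616)) (PE.v 0)))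
  (PE.mul (PE.c (-939912768)) (PE.v 1))

set_option maxRecDepth 100000 in
lemma qv_chk : chk [] (PE.sub (lvU 17 rows) qv) = true := by decide +kernel

lemma hval_rows (ν ρ : ℝ) : hvalU 17 (rlH 281474976710656 rows) ν ρ
    = (-(83209529 / 17592186044416)) + (20274457 / 17592186044416) * ν + (-(1631793 / 8796093022208)) * ρ := by
  rw [hvalU_eq (by norm_num) qv_chk]
  unfold qv
  simp only [PE.ev_add, PE.ev_mul, PE.ev_c, PE.ev_v]
  have e0 : ([ν, ρ] : List ℝ).getD 0 0 = ν := rfl
  have e1 : ([ν, ρ] : List ℝ).getD 1 0 = ρ := rfl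
  rw [e0, e1]
  push_cast
  ring

lemma kh : (37007949643 / 250000) * (143518 / 100000) ≤ KH 17 := by
  have hb := (div_pi_bounds (N := (4294967296 / 6435)) (by norm_num)).1
  rw [KHn_17]
  refine le_trans ?_ hb
  norm_num

/-- **The law is negative.** -/
theorem hneg {ν ρ : ℝ} (h1 : (1 / 50) ≤ ν) (h2 : ν ≤ (1 / 8)) (hr1 : ν ^ 2 ≤ ρ) (hr2 : ρ ≤ 1) :
    hvalU 17 (rlH 281474976710656 rows) ν ρ ≤ 0 ∧
      ((197256153175664 / 281474976710656) + (0 / 281474976710656) + (-67543897871616 / 281474976710656) * ν + (98271251630328 / 281474976710656) * ν ^ 2 + ((7729659474704 / 281474976710656) + (0 / 281474976710656) * ν) * ρ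
        + ((3290250966064 / 281474976710656) + (0 / 281474976710656)) * ν ^ 2 + (0 / 281474976710656) * ((1 - ρ) / ((17 : ℕ) + 1)))
        + (37007949643 / 250000) * hvalU 17 (rlH 281474976710656 rows) ν ρ < 0 := by
  rw [hval_rows]
  have ha := sub_nonneg.2 h1
  have hb := sub_nonneg.2 h2
  have hab := mul_nonneg ha hb
  constructor
  · have e1 : (-(83209529 / 17592186044416)) + (20274457 / 17592186044416) * ν + (-(1631793 / 8796093022208)) * ν ^ 2 < 0 := by
      nlinarith
    have e2 : (-(83209529 / 17592186044416)) + (20274457 / 17592186044416) * ν + (-(1631793 / 8796093022208)) * 1 < 0 := by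
      linarith
    exact (aff_neg e1 e2 hr1 hr2).le
  · have e1 : ((2713334320001853 / 4398046511104000000) + (-(305057320548831149 / 4398046511104000000)) * ν + (12695187824549 / 35184372088832) * ν ^ 2) + ((-(1348525674899 / 2199023255552000000)) + 0 * ν) * ν ^ 2 < 0 := by
      nlinarith [mul_nonneg hab ha, mul_nonneg hab hb]
    have e2 : ((2713334320001853 / 4398046511104000000) + (-(305057320548831149 / 4398046511104000000)) * ν + (12695187824549 / 35184372088832) * ν ^ 2) + ((-(1348525674899 / 2199023255552000000)) + 0 * ν) * 1 < 0 := by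
      nlinarith
    have e3 := aff_neg e1 e2 hr1 hr2
    refine lt_of_eq_of_lt ?_ e3
    push_cast
    ring

end Vale.Agent.P224.R2.H797.T17
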